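import Vale.Agent.Lib.P335.Bip.Defs
import Vale.Agent.Lib.P335.H15.Pairs

/-!
# Spectral gap two from the triple inequality and the disjoint-pair inequality

A model-free form of the Caputo-type argument for the switch chain on the realizations of a
general degree sequence.  `E W` is a family of averaging operators indexed by the finite
subsets `W` of a vertex set `V` (for graphs: the conditional expectation given the graph with
the vertices of `W` deleted).  Put `Y b = 1 - E b` and `X = ∑ Y b` over all two-element sets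
`b`.  Expanding `X²`, the pairs `b ≠ b'` that meet span a three-element set and are handled by
the triple inequality `(T)`, while the disjoint pairs are handled by the aggregated inequality
`(D)`; together they give `‖X f‖² ≥ 2 ⟨f, X f⟩`, and hence `X ≥ 2 (1 - P₀)` where `P₀` is the
projection on the constants, provided the common fixed functions of the `E b` are the constants.
-/

set_option linter.unusedSectionVars false

namespace Vale.Agent.Lib.P335.H22

open Finset Matrix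
open Classical

section lin

variable {Ω : Type} [Fintype Ω]

/-- A symmetric positive semidefinite injective linear map `T` with `T² ≥ T` satisfies
`T ≥ 1`. -/
theorem ge_one_of_sq_ge_lin (T : (Ω → ℝ) →ₗ[ℝ] (Ω → ℝ))
    (hsymm : ∀ f g : Ω → ℝ, T f ⬝ᵥ g = f ⬝ᵥ T g)
    (hpsd : ∀ g : Ω → ℝ, 0 ≤ g ⬝ᵥ T g)
    (hsq : ∀ g : Ω → ℝ, g ⬝ᵥ T g ≤ T g ⬝ᵥ T g)
    (hinj : ∀ g : Ω → ℝ, T g = 0 → g = 0) (f : Ω → ℝ) :
    f ⬝ᵥ f ≤ f ⬝ᵥ T f := by
  have hinj' : Function.Injective T := by
    rw [← LinearMap.ker_eq_bot, LinearMap.ker_eq_bot']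
    exact hinj
  have hsurj : Function.Surjective T := LinearMap.injective_iff_surjective.mp hinj'
  obtain ⟨g, rfl⟩ := hsurj f
  have h12 := hsq g
  have h1 := hpsd g
  have h3 := hpsd (T g)
  have e : g ⬝ᵥ T (T g) = T g ⬝ᵥ T g := (hsymm g (T g)).symm
  have hquad : ∀ t : ℝ, 0 ≤ (T g ⬝ᵥ T (T g)) * (t * t)
      + (2 * (T g ⬝ᵥ T g)) * t + g ⬝ᵥ T g := by
    intro t
    have := hpsd (g + t • T g)
    simp only [map_add, map_smul, add_dotProduct, dotProduct_add,
      smul_dotProduct, dotProduct_smul, smul_eq_mul] at this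
    rw [e] at this
    linarith
  have hd := discrim_le_zero hquad
  unfold discrim at hd
  obtain ⟨a1, ha1⟩ : ∃ a1 : ℝ, a1 = g ⬝ᵥ T g := ⟨_, rfl⟩
  obtain ⟨a2, ha2⟩ : ∃ a2 : ℝ, a2 = T g ⬝ᵥ T g := ⟨_, rfl⟩
  obtain ⟨a3, ha3⟩ : ∃ a3 : ℝ, a3 = T g ⬝ᵥ T (T g) := ⟨_, rfl⟩
  rw [← ha1, ← ha2, ← ha3] at hd
  rw [← ha1, ← ha2] at h12
  rw [← ha3] at h3
  rw [← ha2, ← ha3]
  have h2 : 0 ≤ a2 := by
    rw [ha2]
    exact H15.dot_self_nonneg _
  by_cases hz : a2 ≤ 0
  · linarith
  · push Not at hz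
    have h4 : a2 * a2 ≤ a2 * a3 := by nlinarith
    exact le_of_mul_le_mul_left h4 hz

end lin

section family

variable {Ω V : Type} [Fintype Ω] [Fintype V] [DecidableEq V]

/-- The properties of a family of averaging operators that the argument uses: linearity,
symmetry for the standard inner product, the tower property and preservation of the constant
function `1`. -/
structure AvgFamily (E : Finset V → (Ω → ℝ) → (Ω → ℝ)) : Prop where
  add : ∀ (W : Finset V) (f g : Ω → ℝ), E W (f + g) = E W f + E W g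
  smul : ∀ (W : Finset V) (c : ℝ) (f : Ω → ℝ), E W (c • f) = c • E W f
  symm : ∀ (W : Finset V) (f g : Ω → ℝ), E W f ⬝ᵥ g = f ⬝ᵥ E W g
  tower : ∀ W W' : Finset V, W ⊆ W' → ∀ f : Ω → ℝ, E W (E W' f) = E W' f
  const : ∀ W : Finset V, E W (fun _ => (1 : ℝ)) = fun _ => 1

namespace AvgFamily

variable {E : Finset V → (Ω → ℝ) → (Ω → ℝ)}

theorem idem (hE : AvgFamily E) (W : Finset V) (f : Ω → ℝ) : E W (E W f) = E W f :=
  hE.tower W W (Finset.Subset.refl W) f

theorem map_zero (hE : AvgFamily E) (W : Finset V) : E W 0 = 0 := by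
  have h := hE.smul W 0 0
  rw [zero_smul, zero_smul] at h
  exact h

theorem map_neg (hE : AvgFamily E) (W : Finset V) (f : Ω → ℝ) : E W (-f) = -E W f := by
  have h := hE.smul W (-1) f
  rw [neg_one_smul, neg_one_smul] at h
  exact h

theorem map_sub (hE : AvgFamily E) (W : Finset V) (f g : Ω → ℝ) :
    E W (f - g) = E W f - E W g := by
  rw [sub_eq_add_neg, hE.add, hE.map_neg, ← sub_eq_add_neg]

theorem tower' (hE : AvgFamily E) {W W' : Finset V} (h : W ⊆ W') (f : Ω → ℝ) :
    E W' (E W f) = E W' f := by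
  have key : ∀ g : Ω → ℝ, (E W' (E W f) - E W' f) ⬝ᵥ g = 0 := by
    intro g
    rw [sub_dotProduct, hE.symm W' (E W f) g, hE.symm W f (E W' g), hE.tower W W' h,
      hE.symm W' f g, sub_self]
  exact sub_eq_zero.mp (H15.dot_self_eq_zero (key _))

/-- the complementary operator is a projection: its quadratic form is a squared norm -/
theorem dot_comp_self (hE : AvgFamily E) (W : Finset V) (f : Ω → ℝ) :
    (f - E W f) ⬝ᵥ (f - E W f) = f ⬝ᵥ f - f ⬝ᵥ E W f := by
  have h1 : E W f ⬝ᵥ f = f ⬝ᵥ E W f := dotProduct_comm _ _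
  have h2 : E W f ⬝ᵥ E W f = f ⬝ᵥ E W f := by rw [hE.symm, hE.idem]
  rw [sub_dotProduct, dotProduct_sub, dotProduct_sub, h1, h2]
  ring

theorem dot_self_comp (W : Finset V) (f : Ω → ℝ) :
    f ⬝ᵥ (f - E W f) = f ⬝ᵥ f - f ⬝ᵥ E W f := dotProduct_sub _ _ _

theorem comp_nonneg (hE : AvgFamily E) (W : Finset V) (f : Ω → ℝ) :
    0 ≤ f ⬝ᵥ f - f ⬝ᵥ E W f := by
  rw [← hE.dot_comp_self]
  exact H15.dot_self_nonneg _

theorem comp_centered (hE : AvgFamily E) {W T : Finset V} (h : W ⊆ T) (f : Ω → ℝ) :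
    (f - E T f) - E W (f - E T f) = f - E W f := by
  rw [hE.map_sub, hE.tower W T h]
  abel

/-- the sum of an averaged function equals the sum of the function -/
theorem sum_apply (hE : AvgFamily E) (W : Finset V) (f : Ω → ℝ) :
    ∑ x, E W f x = ∑ x, f x := by
  have h := hE.symm W (fun _ => (1 : ℝ)) f
  rw [hE.const] at h
  have e1 : (fun _ : Ω => (1 : ℝ)) ⬝ᵥ f = ∑ x, f x := by
    unfold dotProduct
    exact Finset.sum_congr rfl (fun x _ => one_mul _)
  have e2 : (fun _ : Ω => (1 : ℝ)) ⬝ᵥ E W f = ∑ x, E W f x := by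
    unfold dotProduct
    exact Finset.sum_congr rfl (fun x _ => one_mul _)
  rw [e1, e2] at h
  exact h.symm

/-- The triple inequality in the form `A_T² ≥ A_T`, where `A_T` is the sum of the
complementary operators of the three pairs inside `T`. -/
theorem triple_sq_ge (hE : AvgFamily E)
    (h3 : ∀ T : Finset V, T.card = 3 → ∀ f : Ω → ℝ,
      f ⬝ᵥ f - f ⬝ᵥ E T f ≤ ∑ b ∈ T.powersetCard 2, (f ⬝ᵥ f - f ⬝ᵥ E b f))
    (T : Finset V) (hT : T.card = 3) (f : Ω → ℝ) :
    ∑ b ∈ T.powersetCard 2, (f - E b f) ⬝ᵥ (f - E b f)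
      ≤ ∑ b ∈ T.powersetCard 2, ∑ b' ∈ T.powersetCard 2, (f - E b f) ⬝ᵥ (f - E b' f) := by
  obtain ⟨g, hg⟩ : ∃ g : Ω → ℝ, g = f - E T f := ⟨_, rfl⟩
  have hYg : ∀ b ∈ T.powersetCard 2, g - E b g = f - E b f := by
    intro b hb
    rw [hg]
    exact hE.comp_centered (Finset.mem_powersetCard.mp hb).1 f
  have hETg : E T g = 0 := by rw [hg, hE.map_sub, hE.idem, sub_self]
  obtain ⟨A, hA⟩ : ∃ A : Ω → ℝ, A = ∑ b ∈ T.powersetCard 2, (f - E b f) := ⟨_, rfl⟩
  have hRHS : ∑ b ∈ T.powersetCard 2, ∑ b' ∈ T.powersetCard 2, (f - E b f) ⬝ᵥ (f - E b' f)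
      = A ⬝ᵥ A := by
    rw [hA, sum_dotProduct]
    apply Finset.sum_congr rfl
    intro b _
    rw [dotProduct_sum]
  have hgA : g ⬝ᵥ A = ∑ b ∈ T.powersetCard 2, (f - E b f) ⬝ᵥ (f - E b f) := by
    rw [hA, dotProduct_sum]
    apply Finset.sum_congr rfl
    intro b hb
    rw [← hYg b hb, hE.dot_comp_self, dot_self_comp]
  have hgg : g ⬝ᵥ g ≤ g ⬝ᵥ A := by
    have h := h3 T hT g
    rw [hETg, dotProduct_zero, sub_zero] at h
    rw [hgA]
    calc g ⬝ᵥ g ≤ ∑ b ∈ T.powersetCard 2, (g ⬝ᵥ g - g ⬝ᵥ E b g) := h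
      _ = ∑ b ∈ T.powersetCard 2, (f - E b f) ⬝ᵥ (f - E b f) := by
        apply Finset.sum_congr rfl
        intro b hb
        rw [← hYg b hb, hE.dot_comp_self]
  rw [hRHS, ← hgA]
  have hcs := H15.dot_cs g A
  have ha0 := H15.dot_self_nonneg g
  have hc0 := H15.dot_self_nonneg A
  by_cases hb : g ⬝ᵥ A ≤ 0
  · linarith
  · push Not at hb
    have h1 : (g ⬝ᵥ A) * (g ⬝ᵥ A) ≤ (g ⬝ᵥ A) * (A ⬝ᵥ A) := by nlinarith
    exact le_of_mul_le_mul_left h1 hb

end AvgFamily

theorem not_disjoint_in_triple {T b b' : Finset V} (hT : T.card = 3)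
    (hb : b ∈ T.powersetCard 2) (hb' : b' ∈ T.powersetCard 2) : ¬ Disjoint b b' := by
  intro hd
  rw [Finset.mem_powersetCard] at hb hb'
  have h1 : (b ∪ b').card = 4 := by rw [Finset.card_union_of_disjoint hd, hb.2, hb'.2]
  have h2 : (b ∪ b').card ≤ T.card := Finset.card_le_card (Finset.union_subset hb.1 hb'.1)
  omega

theorem not_disjoint_self {b : Finset V} (hb : b.card = 2) : ¬ Disjoint b b := by
  intro hd
  rw [Finset.disjoint_self_iff_empty] at hd
  rw [hd] at hb
  simp at hb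

/-- the sum of the complementary operators over all two-element sets -/
noncomputable def XX (E : Finset V → (Ω → ℝ) → (Ω → ℝ)) (g : Ω → ℝ) : Ω → ℝ :=
  ∑ b ∈ (univ : Finset V).powersetCard 2, (g - E b g)

/-- the projection on the constant functions -/
noncomputable def P0 (g : Ω → ℝ) : Ω → ℝ := fun _ => (∑ x, g x) / (Fintype.card Ω : ℝ)

variable {E : Finset V → (Ω → ℝ) → (Ω → ℝ)}

theorem dot_XX (g : Ω → ℝ) :
    g ⬝ᵥ XX E g = ∑ b ∈ (univ : Finset V).powersetCard 2, (g ⬝ᵥ g - g ⬝ᵥ E b g) := by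
  unfold XX
  rw [dotProduct_sum]
  exact Finset.sum_congr rfl (fun b _ => dotProduct_sub _ _ _)

theorem XX_dot_XX (g : Ω → ℝ) :
    XX E g ⬝ᵥ XX E g = ∑ b ∈ (univ : Finset V).powersetCard 2,
      ∑ b' ∈ (univ : Finset V).powersetCard 2, (g - E b g) ⬝ᵥ (g - E b' g) := by
  unfold XX
  rw [sum_dotProduct]
  apply Finset.sum_congr rfl
  intro b _
  rw [dotProduct_sum]

/-- **`X² ≥ 2 X`** from the triple inequality and the disjoint-pair inequality. -/
theorem sq_ge_two (hE : AvgFamily E)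
    (h3 : ∀ T : Finset V, T.card = 3 → ∀ f : Ω → ℝ,
      f ⬝ᵥ f - f ⬝ᵥ E T f ≤ ∑ b ∈ T.powersetCard 2, (f ⬝ᵥ f - f ⬝ᵥ E b f))
    (f : Ω → ℝ)
    (hD : ∑ b ∈ (univ : Finset V).powersetCard 2, (f ⬝ᵥ f - f ⬝ᵥ E b f)
      ≤ ∑ b ∈ (univ : Finset V).powersetCard 2,
          ∑ b' ∈ ((univ : Finset V).powersetCard 2).filter (fun b' => Disjoint b b'),
            (f - E b f) ⬝ᵥ (f - E b' f)) :
    2 * (f ⬝ᵥ XX E f) ≤ XX E f ⬝ᵥ XX E f := by
  obtain ⟨q, hq⟩ : ∃ q : Finset V → Finset V → ℝ,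
      q = fun b b' => (f - E b f) ⬝ᵥ (f - E b' f) := ⟨_, rfl⟩
  have hqd : ∀ b, q b b = f ⬝ᵥ f - f ⬝ᵥ E b f := by
    intro b
    rw [hq]
    exact hE.dot_comp_self b f
  have hcore := H15.caputo_core_pairs (R := V) (fun b b' => if Disjoint b b' then 0 else q b b')
    (fun b b' _ _ hd => by rw [if_pos hd])
    (fun T hT => by
      have e1 : ∑ b ∈ T.powersetCard 2, (if Disjoint b b then 0 else q b b)
          = ∑ b ∈ T.powersetCard 2, q b b :=
        Finset.sum_congr rfl (fun b hb => if_neg (not_disjoint_in_triple hT hb hb))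
      have e2 : ∑ b ∈ T.powersetCard 2, ∑ b' ∈ T.powersetCard 2,
          (if Disjoint b b' then 0 else q b b')
          = ∑ b ∈ T.powersetCard 2, ∑ b' ∈ T.powersetCard 2, q b b' :=
        Finset.sum_congr rfl (fun b hb => Finset.sum_congr rfl
          (fun b' hb' => if_neg (not_disjoint_in_triple hT hb hb')))
      rw [e1, e2, hq]
      exact hE.triple_sq_ge h3 T hT f)
  have e1 : ∑ b ∈ (univ : Finset V).powersetCard 2, (if Disjoint b b then 0 else q b b)
      = ∑ b ∈ (univ : Finset V).powersetCard 2, (f ⬝ᵥ f - f ⬝ᵥ E b f) := by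
    apply Finset.sum_congr rfl
    intro b hb
    rw [if_neg (not_disjoint_self (Finset.mem_powersetCard.mp hb).2), hqd]
  have e2 : ∑ b ∈ (univ : Finset V).powersetCard 2, ∑ b' ∈ (univ : Finset V).powersetCard 2,
      (if Disjoint b b' then 0 else q b b')
      = XX E f ⬝ᵥ XX E f - ∑ b ∈ (univ : Finset V).powersetCard 2,
          ∑ b' ∈ ((univ : Finset V).powersetCard 2).filter (fun b' => Disjoint b b'),
            (f - E b f) ⬝ᵥ (f - E b' f) := by
    rw [XX_dot_XX, ← Finset.sum_sub_distrib]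
    apply Finset.sum_congr rfl
    intro b _
    rw [Finset.sum_filter, ← Finset.sum_sub_distrib]
    apply Finset.sum_congr rfl
    intro b' _
    by_cases h : Disjoint b b'
    · rw [if_pos h, if_pos h, sub_self]
    · rw [if_neg h, if_neg h, sub_zero, hq]
  rw [e1, e2] at hcore
  rw [dot_XX]
  linarith

theorem XX_add (hE : AvgFamily E) (f g : Ω → ℝ) : XX E (f + g) = XX E f + XX E g := by
  unfold XX
  rw [← Finset.sum_add_distrib]
  apply Finset.sum_congr rfl
  intro b _
  rw [hE.add]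
  abel

theorem XX_smul (hE : AvgFamily E) (c : ℝ) (f : Ω → ℝ) : XX E (c • f) = c • XX E f := by
  unfold XX
  rw [Finset.smul_sum]
  apply Finset.sum_congr rfl
  intro b _
  rw [hE.smul, smul_sub]

theorem XX_symm (hE : AvgFamily E) (f g : Ω → ℝ) : XX E f ⬝ᵥ g = f ⬝ᵥ XX E g := by
  unfold XX
  rw [sum_dotProduct, dotProduct_sum]
  apply Finset.sum_congr rfl
  intro b _
  rw [sub_dotProduct, dotProduct_sub, hE.symm]

theorem sum_XX (hE : AvgFamily E) (g : Ω → ℝ) : ∑ x, XX E g x = 0 := by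
  unfold XX
  have e : ∀ x, (∑ b ∈ (univ : Finset V).powersetCard 2, (g - E b g)) x
      = ∑ b ∈ (univ : Finset V).powersetCard 2, (g x - E b g x) := by
    intro x
    rw [Finset.sum_apply]
    rfl
  rw [Finset.sum_congr rfl (fun x _ => e x), Finset.sum_comm]
  apply Finset.sum_eq_zero
  intro b _
  rw [Finset.sum_sub_distrib, hE.sum_apply, sub_self]

theorem P0_add (f g : Ω → ℝ) : P0 (f + g) = P0 f + P0 g := by
  funext x
  simp only [P0, Pi.add_apply, Finset.sum_add_distrib, add_div]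

theorem P0_smul (c : ℝ) (f : Ω → ℝ) : P0 (c • f) = c • P0 f := by
  funext x
  simp only [P0, Pi.smul_apply, smul_eq_mul, ← Finset.mul_sum, mul_div_assoc]

theorem dot_P0 (f g : Ω → ℝ) :
    f ⬝ᵥ P0 g = (∑ x, f x) * ((∑ x, g x) / (Fintype.card Ω : ℝ)) := by
  unfold dotProduct P0
  rw [Finset.sum_mul]

theorem P0_dot (f g : Ω → ℝ) :
    P0 f ⬝ᵥ g = (∑ x, f x) * ((∑ x, g x) / (Fintype.card Ω : ℝ)) := by
  rw [dotProduct_comm, dot_P0]
  ring

theorem P0_dot_P0 [Nonempty Ω] (g : Ω → ℝ) :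
    P0 g ⬝ᵥ P0 g = (∑ x, g x) * ((∑ x, g x) / (Fintype.card Ω : ℝ)) := by
  have hN : (Fintype.card Ω : ℝ) ≠ 0 := by
    have : 0 < Fintype.card Ω := Fintype.card_pos
    exact_mod_cast this.ne'
  rw [P0_dot]
  have e : ∑ x, P0 g x = ∑ x, g x := by
    unfold P0
    rw [Finset.sum_const, Finset.card_univ, nsmul_eq_mul]
    field_simp
  rw [e]

/-- **Gap two, abstract form (dot product).** -/
theorem gap_two_dot (hE : AvgFamily E)
    (h3 : ∀ T : Finset V, T.card = 3 → ∀ f : Ω → ℝ,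
      f ⬝ᵥ f - f ⬝ᵥ E T f ≤ ∑ b ∈ T.powersetCard 2, (f ⬝ᵥ f - f ⬝ᵥ E b f))
    (hD : ∀ f : Ω → ℝ, ∑ b ∈ (univ : Finset V).powersetCard 2, (f ⬝ᵥ f - f ⬝ᵥ E b f)
      ≤ ∑ b ∈ (univ : Finset V).powersetCard 2,
          ∑ b' ∈ ((univ : Finset V).powersetCard 2).filter (fun b' => Disjoint b b'),
            (f - E b f) ⬝ᵥ (f - E b' f))
    (hker : ∀ f : Ω → ℝ, (∀ b : Finset V, b.card = 2 → E b f = f) → ∀ x y, f x = f y)
    (f : Ω → ℝ) (hf : ∑ x, f x = 0) :
    2 * (f ⬝ᵥ f) ≤ ∑ b ∈ (univ : Finset V).powersetCard 2, (f ⬝ᵥ f - f ⬝ᵥ E b f) := by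
  rcases isEmpty_or_nonempty Ω with hΩ | hΩ
  · have h0 : ∀ u v : Ω → ℝ, u ⬝ᵥ v = 0 := by
      intro u v
      unfold dotProduct
      rw [Finset.univ_eq_empty, Finset.sum_empty]
    rw [h0]
    apply le_of_eq
    rw [mul_zero]
    symm
    apply Finset.sum_eq_zero
    intro b _
    rw [h0, sub_zero]
  · have hN : 0 < (Fintype.card Ω : ℝ) := by
      have : 0 < Fintype.card Ω := Fintype.card_pos
      exact_mod_cast this
    let T : (Ω → ℝ) →ₗ[ℝ] (Ω → ℝ) :=
      { toFun := fun g => (1 / 2 : ℝ) • XX E g + P0 g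
        map_add' := by
          intro u v
          rw [XX_add hE, P0_add, smul_add]
          abel
        map_smul' := by
          intro c u
          rw [XX_smul hE, P0_smul, RingHom.id_apply, smul_add, smul_comm] }
    have hT : ∀ g : Ω → ℝ, T g = (1 / 2 : ℝ) • XX E g + P0 g := fun g => rfl
    have hquad : ∀ g : Ω → ℝ, g ⬝ᵥ T g
        = (1 / 2) * ∑ b ∈ (univ : Finset V).powersetCard 2, (g ⬝ᵥ g - g ⬝ᵥ E b g)
          + (∑ x, g x) * ((∑ x, g x) / (Fintype.card Ω : ℝ)) := by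
      intro g
      rw [hT, dotProduct_add, dotProduct_smul, dot_XX, dot_P0, smul_eq_mul]
    have hsum_nonneg : ∀ g : Ω → ℝ,
        0 ≤ ∑ b ∈ (univ : Finset V).powersetCard 2, (g ⬝ᵥ g - g ⬝ᵥ E b g) :=
      fun g => Finset.sum_nonneg (fun b _ => hE.comp_nonneg b g)
    have hP_nonneg : ∀ g : Ω → ℝ, 0 ≤ (∑ x, g x) * ((∑ x, g x) / (Fintype.card Ω : ℝ)) := by
      intro g
      rw [← mul_div_assoc]
      exact div_nonneg (mul_self_nonneg _) hN.le
    have hfin := ge_one_of_sq_ge_lin T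
      (fun u v => by
        rw [hT, hT, add_dotProduct, dotProduct_add, smul_dotProduct, dotProduct_smul,
          XX_symm hE, P0_dot, dot_P0])
      (fun g => by
        rw [hquad]
        have := hsum_nonneg g
        have := hP_nonneg g
        linarith)
      (fun g => by
        have hsq := sq_ge_two hE h3 g (hD g)
        have hcross : XX E g ⬝ᵥ P0 g = 0 := by
          rw [dot_P0, sum_XX hE, zero_mul]
        have hcross' : P0 g ⬝ᵥ XX E g = 0 := by
          rw [dotProduct_comm, hcross]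
        have e1 : T g ⬝ᵥ T g = (1 / 4) * (XX E g ⬝ᵥ XX E g)
            + (∑ x, g x) * ((∑ x, g x) / (Fintype.card Ω : ℝ)) := by
          rw [hT]
          simp only [add_dotProduct, dotProduct_add, smul_dotProduct, dotProduct_smul, hcross,
            hcross', smul_eq_mul]
          rw [P0_dot_P0]
          ring
        rw [e1, hquad, ← dot_XX]
        linarith)
      (fun g hg => by
        have h0 : g ⬝ᵥ T g = 0 := by rw [hg, dotProduct_zero]
        rw [hquad] at h0
        have hs := hsum_nonneg g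
        have hp := hP_nonneg g
        have hS0 : ∑ b ∈ (univ : Finset V).powersetCard 2, (g ⬝ᵥ g - g ⬝ᵥ E b g) = 0 := by
          linarith
        have hP0 : (∑ x, g x) * ((∑ x, g x) / (Fintype.card Ω : ℝ)) = 0 := by linarith
        have hfix : ∀ b : Finset V, b.card = 2 → E b g = g := by
          intro b hb
          have hb' : b ∈ (univ : Finset V).powersetCard 2 :=
            Finset.mem_powersetCard.mpr ⟨Finset.subset_univ b, hb⟩
          have := (Finset.sum_eq_zero_iff_of_nonneg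
            (fun b _ => hE.comp_nonneg b g)).mp hS0 b hb'
          rw [← hE.dot_comp_self] at this
          have h' := H15.dot_self_eq_zero this
          exact (sub_eq_zero.mp h').symm
        have hconst := hker g hfix
        have hsum0 : ∑ x, g x = 0 := by
          rcases mul_eq_zero.mp hP0 with h | h
          · exact h
          · rcases div_eq_zero_iff.mp h with h | h
            · exact h
            · exact absurd h hN.ne'
        funext x
        have e : ∑ y, g y = (Fintype.card Ω : ℝ) * g x := by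
          rw [Finset.sum_congr rfl (fun y _ => hconst y x), Finset.sum_const, Finset.card_univ,
            nsmul_eq_mul]
        rw [e] at hsum0
        rcases mul_eq_zero.mp hsum0 with h | h
        · exact absurd h hN.ne'
        · exact h)
      f
    rw [hquad, hf, zero_mul, add_zero] at hfin
    linarith

end family

section final

open Vale.Agent.Lib.P335.Bip (ip)

variable {Ω V : Type} [Fintype Ω] [Fintype V] [DecidableEq V]

/-- **Gap two, abstract form.**  Let `E W` be linear operators on functions `Ω → ℝ`, symmetric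
for `ip`, with the tower property and fixing the constants.  If the triple inequality `(T)`
holds for every three-element set, the disjoint-pair inequality `(D)` holds, and the only
functions fixed by all `E b`, `b` a two-element set, are the constants, then every `f` with
zero sum satisfies `2 ⟨f, f⟩ ≤ ∑_b (⟨f, f⟩ - ⟨f, E b f⟩)`. -/
theorem gap_two_of (E : Finset V → (Ω → ℝ) → (Ω → ℝ))
    (hadd : ∀ (W : Finset V) (f g : Ω → ℝ), E W (f + g) = E W f + E W g)
    (hsmul : ∀ (W : Finset V) (c : ℝ) (f : Ω → ℝ), E W (c • f) = c • E W f)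
    (hsymm : ∀ (W : Finset V) (f g : Ω → ℝ), ip (E W f) g = ip f (E W g))
    (htower : ∀ W W' : Finset V, W ⊆ W' → ∀ f : Ω → ℝ, E W (E W' f) = E W' f)
    (hconst : ∀ W : Finset V, E W (fun _ => (1 : ℝ)) = fun _ => 1)
    (h3 : ∀ T : Finset V, T.card = 3 → ∀ f : Ω → ℝ,
      ip f f - ip f (E T f) ≤ ∑ b ∈ T.powersetCard 2, (ip f f - ip f (E b f)))
    (hD : ∀ f : Ω → ℝ, ∑ b ∈ (univ : Finset V).powersetCard 2, (ip f f - ip f (E b f))
      ≤ ∑ b ∈ (univ : Finset V).powersetCard 2,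
          ∑ b' ∈ ((univ : Finset V).powersetCard 2).filter (fun b' => Disjoint b b'),
            ip (f - E b f) (f - E b' f))
    (hker : ∀ f : Ω → ℝ, (∀ b : Finset V, b.card = 2 → E b f = f) → ∀ x y, f x = f y)
    (f : Ω → ℝ) (hf : ∑ x, f x = 0) :
    2 * ip f f ≤ ∑ b ∈ (univ : Finset V).powersetCard 2, (ip f f - ip f (E b f)) :=
  gap_two_dot (E := E) ⟨hadd, hsmul, hsymm, htower, hconst⟩ h3 hD hker f hf

/-- **Poincare inequality from the modules, abstract form.**  With the pair-level inequality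
`4 (⟨f, f⟩ - ⟨f, E b f⟩) ≤ energy b f` and `∑_b energy b f ≤ 2 * total f` (every move has at
most two diagonals), the gap-two statement gives `4 ⟨f, f⟩ ≤ total f`. -/
theorem poincare_of (E : Finset V → (Ω → ℝ) → (Ω → ℝ))
    (hadd : ∀ (W : Finset V) (f g : Ω → ℝ), E W (f + g) = E W f + E W g)
    (hsmul : ∀ (W : Finset V) (c : ℝ) (f : Ω → ℝ), E W (c • f) = c • E W f)
    (hsymm : ∀ (W : Finset V) (f g : Ω → ℝ), ip (E W f) g = ip f (E W g))
    (htower : ∀ W W' : Finset V, W ⊆ W' → ∀ f : Ω → ℝ, E W (E W' f) = E W' f)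
    (hconst : ∀ W : Finset V, E W (fun _ => (1 : ℝ)) = fun _ => 1)
    (h3 : ∀ T : Finset V, T.card = 3 → ∀ f : Ω → ℝ,
      ip f f - ip f (E T f) ≤ ∑ b ∈ T.powersetCard 2, (ip f f - ip f (E b f)))
    (hD : ∀ f : Ω → ℝ, ∑ b ∈ (univ : Finset V).powersetCard 2, (ip f f - ip f (E b f))
      ≤ ∑ b ∈ (univ : Finset V).powersetCard 2,
          ∑ b' ∈ ((univ : Finset V).powersetCard 2).filter (fun b' => Disjoint b b'),
            ip (f - E b f) (f - E b' f))
    (hker : ∀ f : Ω → ℝ, (∀ b : Finset V, b.card = 2 → E b f = f) → ∀ x y, f x = f y)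
    (energy : Finset V → (Ω → ℝ) → ℝ) (total : (Ω → ℝ) → ℝ)
    (hjohn : ∀ b : Finset V, b.card = 2 → ∀ f : Ω → ℝ,
      4 * (ip f f - ip f (E b f)) ≤ energy b f)
    (hsum : ∀ f : Ω → ℝ, ∑ b ∈ (univ : Finset V).powersetCard 2, energy b f ≤ 2 * total f)
    (f : Ω → ℝ) (hf : ∑ x, f x = 0) :
    4 * ip f f ≤ total f := by
  have h1 := gap_two_of E hadd hsmul hsymm htower hconst h3 hD hker f hf
  have h2 : ∑ b ∈ (univ : Finset V).powersetCard 2, 4 * (ip f f - ip f (E b f))
      ≤ ∑ b ∈ (univ : Finset V).powersetCard 2, energy b f :=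
    Finset.sum_le_sum (fun b hb => hjohn b (Finset.mem_powersetCard.mp hb).2 f)
  rw [← Finset.mul_sum] at h2
  have h4 := hsum f
  linarith

end final

end Vale.Agent.Lib.P335.H22
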