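import Vale.Agent.Lib.P335.H22.GapTwo
import Vale.Agent.Lib.P335.Gr.Pair
import Vale.Agent.Lib.P335.SplitMix
import Vale.Agent.Lib.P335.H23.GraphD

/-!
# The Poincare inequality of the switch chain for a general degree sequence, from the modules

The graph-side glue (module G5): the averaging operators `Gr.gavg W` form a family to which the
model-free argument of `H22/GapTwo` applies.  The common fixed functions of the pair averages
are the constants because every switch keeps the graph off one of its diagonals and the switch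
graph is connected.  Given the triple inequality `(T)`, the disjoint-pair inequality `(D)` and
the fact that the pair energies add up to at most twice the switch energy, this yields the
Poincare inequality with constant `4` for the unit-weight switch energy, and hence mixing of the
lazy switch chain within `n^6` steps.
-/

namespace Vale.Agent.Lib.P335.H22

open Finset
open Classical
open Vale.Agent.Lib.P335 Vale.Agent.Lib.P335.Gr
open Vale.Agent.Lib.P335.Bip (ip)

variable {n : ℕ} {d : Fin n → ℕ}

/-- the averaging operators of the graph model form an averaging family -/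
theorem gavgFamily : AvgFamily (fun (W : Finset (Fin n)) (f : Omega d → ℝ) => gavg W f) :=
  ⟨fun W f g => gavg_add W f g, fun W c f => gavg_smul W c f, fun W f g => gavg_symm W f g,
    fun W W' h f => (gavg_tower W W' h f).2, fun W => gavg_const W 1⟩

theorem ip_comp_self (b : Finset (Fin n)) (f : Omega d → ℝ) :
    ip (f - gavg b f) (f - gavg b f) = ip f f - ip f (gavg b f) :=
  (gavgFamily (d := d)).dot_comp_self b f

/-- a switch on `(a, b, c, e)` does not change the graph off its diagonal `{a, e}` -/
theorem gagree_switchSet (E : Finset (Sym2 (Fin n))) (a b c e : Fin n) :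
    GAgree {a, e} E (switchSet E a b c e) := by
  intro x y hx hy
  unfold switchSet
  simp only [Finset.mem_insert, Finset.mem_singleton, not_or] at hx hy
  split_ifs with h
  · simp only [Finset.mem_union, Finset.mem_sdiff, Finset.mem_insert, Finset.mem_singleton,
      Sym2.eq_iff]
    tauto
  · exact Iff.rfl

theorem gagree_step (G : Omega d) (p : Proposal n) :
    GAgree {p.1.1, p.1.2.2.2} G.1 (step G p).1 :=
  gagree_switchSet G.1 _ _ _ _

/-- a function fixed by all pair averages is invariant under every move of the chain -/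
theorem step_invariant (f : Omega d → ℝ)
    (hfix : ∀ b : Finset (Fin n), b.card = 2 → gavg b f = f) (G : Omega d) (p : Proposal n) :
    f (step G p) = f G := by
  have hcard : ({p.1.1, p.1.2.2.2} : Finset (Fin n)).card = 2 := Finset.card_pair p.2.2.2.1
  exact ((gavg_eq_self_iff _ f).mp (hfix _ hcard) G (step G p) (gagree_step G p)).symm

/-- **The kernel.**  A function fixed by all pair averages is constant: the switch graph is
connected. -/
theorem const_of_gavg_fixed (f : Omega d → ℝ)
    (hfix : ∀ b : Finset (Fin n), b.card = 2 → gavg b f = f) (G H : Omega d) : f G = f H := by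
  have key : ∀ m : ℕ, ∀ G H : Omega d, sdist G.1 H.1 ≤ m → f G = f H := by
    intro m
    induction m with
    | zero =>
      intro G H h
      have hGH : G = H := Subtype.ext (sdist_eq_zero (by omega))
      rw [hGH]
    | succ m ih =>
      intro G H h
      by_cases hne : G = H
      · rw [hne]
      · rcases exists_decreasing G H hne with ⟨p, hp⟩ | ⟨p, hp⟩
        · rw [← step_invariant f hfix G p]
          exact ih (step G p) H (by omega)
        · rw [← step_invariant f hfix H p]
          exact ih G (step H p) (by omega)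
  exact key _ G H (le_refl _)

/-- **Poincare inequality from the graph modules.**  The triple inequality `(T)`, the
disjoint-pair inequality `(D)` and the bound of the pair energies by twice the switch energy
give `4 ∑ f² ≤` the unit-weight switch energy for every `f` with zero sum. -/
theorem graph_poincare_of
    (h3 : ∀ u v w : Fin n, u ≠ v → u ≠ w → v ≠ w → ∀ f : Omega d → ℝ,
      ip f (gavg {v, w} f) + ip f (gavg {u, w} f) + ip f (gavg {u, v} f)
        ≤ 2 * ip f f + ip f (gavg {u, v, w} f))
    (hD : ∀ f : Omega d → ℝ,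
      ∑ b ∈ (univ : Finset (Fin n)).powersetCard 2, ip (f - gavg b f) (f - gavg b f)
        ≤ ∑ b ∈ (univ : Finset (Fin n)).powersetCard 2,
            ∑ c ∈ ((univ : Finset (Fin n)).powersetCard 2).filter (fun c => Disjoint b c),
              ip (f - gavg b f) (f - gavg c f))
    (hsum : ∀ f : Omega d → ℝ,
      ∑ b ∈ (univ : Finset (Fin n)).powersetCard 2, genergy b f ≤ 2 * H23.switchEnergy d f)
    (f : Omega d → ℝ) (hf : ∑ G, f G = 0) :
    4 * ∑ G, f G ^ 2 ≤ H23.switchEnergy d f := by
  have hip : ip f f = ∑ G, f G ^ 2 := by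
    unfold ip
    exact Finset.sum_congr rfl (fun G _ => (sq (f G)).symm)
  rw [← hip]
  refine poincare_of (Ω := Omega d) (V := Fin n) (fun W g => gavg W g)
    (fun W g h => gavg_add W g h) (fun W c g => gavg_smul W c g) (fun W g h => gavg_symm W g h)
    (fun W W' h g => (gavg_tower W W' h g).2) (fun W => gavg_const W 1) ?_ ?_
    (fun g hfix => const_of_gavg_fixed g hfix)
    (fun b g => genergy b g) (fun g => H23.switchEnergy d g) ?_ hsum f hf
  · intro T hT g
    obtain ⟨u, v, w, huv, huw, hvw, rfl⟩ := Finset.card_eq_three.mp hT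
    rw [H15.sum_powersetCard_two_triple huv huw hvw (fun b => ip g g - ip g (gavg b g))]
    have h := h3 u v w huv huw hvw g
    linarith
  · intro g
    have h := hD g
    rw [Finset.sum_congr rfl (fun b _ => ip_comp_self b g)] at h
    exact h
  · intro b hb g
    obtain ⟨u, w, huw, rfl⟩ := Finset.card_eq_two.mp hb
    exact graph_johnson u w huw g

/-- Mixing within `n^6` steps from the graph modules. -/
theorem graph_tv_of (hn : 4 ≤ n)
    (h3 : ∀ u v w : Fin n, u ≠ v → u ≠ w → v ≠ w → ∀ f : Omega d → ℝ,
      ip f (gavg {v, w} f) + ip f (gavg {u, w} f) + ip f (gavg {u, v} f)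
        ≤ 2 * ip f f + ip f (gavg {u, v, w} f))
    (hD : ∀ f : Omega d → ℝ,
      ∑ b ∈ (univ : Finset (Fin n)).powersetCard 2, ip (f - gavg b f) (f - gavg b f)
        ≤ ∑ b ∈ (univ : Finset (Fin n)).powersetCard 2,
            ∑ c ∈ ((univ : Finset (Fin n)).powersetCard 2).filter (fun c => Disjoint b c),
              ip (f - gavg b f) (f - gavg c f))
    (hsum : ∀ f : Omega d → ℝ,
      ∑ b ∈ (univ : Finset (Fin n)).powersetCard 2, genergy b f ≤ 2 * H23.switchEnergy d f)
    (t : ℕ) (ht : n ^ 6 ≤ t) (G : Omega d) :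
    tvDist ((switchMatrix d ^ t) G) (unifDist d) ≤ 1 / 4 :=
  switch_tv_n6 hn d (fun f hf => graph_poincare_of h3 hD hsum f hf) t ht G

/-- The corresponding bound on the mixing time. -/
theorem graph_tmix_of (hn : 4 ≤ n)
    (h3 : ∀ u v w : Fin n, u ≠ v → u ≠ w → v ≠ w → ∀ f : Omega d → ℝ,
      ip f (gavg {v, w} f) + ip f (gavg {u, w} f) + ip f (gavg {u, v} f)
        ≤ 2 * ip f f + ip f (gavg {u, v, w} f))
    (hD : ∀ f : Omega d → ℝ,
      ∑ b ∈ (univ : Finset (Fin n)).powersetCard 2, ip (f - gavg b f) (f - gavg b f)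
        ≤ ∑ b ∈ (univ : Finset (Fin n)).powersetCard 2,
            ∑ c ∈ ((univ : Finset (Fin n)).powersetCard 2).filter (fun c => Disjoint b c),
              ip (f - gavg b f) (f - gavg c f))
    (hsum : ∀ f : Omega d → ℝ,
      ∑ b ∈ (univ : Finset (Fin n)).powersetCard 2, genergy b f ≤ 2 * H23.switchEnergy d f) :
    tmix d ≤ n ^ 6 := by
  unfold tmix
  apply Nat.sInf_le
  intro G
  exact graph_tv_of hn h3 hD hsum _ (le_refl _) G

/-- **Poincare inequality from `(T)` and `(D)`**: the pair energies add up to exactly twice the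
switch energy (`Gr.genergy_sum`). -/
theorem graph_poincare_of2
    (h3 : ∀ u v w : Fin n, u ≠ v → u ≠ w → v ≠ w → ∀ f : Omega d → ℝ,
      ip f (gavg {v, w} f) + ip f (gavg {u, w} f) + ip f (gavg {u, v} f)
        ≤ 2 * ip f f + ip f (gavg {u, v, w} f))
    (hD : ∀ f : Omega d → ℝ,
      ∑ b ∈ (univ : Finset (Fin n)).powersetCard 2, ip (f - gavg b f) (f - gavg b f)
        ≤ ∑ b ∈ (univ : Finset (Fin n)).powersetCard 2,
            ∑ c ∈ ((univ : Finset (Fin n)).powersetCard 2).filter (fun c => Disjoint b c),
              ip (f - gavg b f) (f - gavg c f))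
    (f : Omega d → ℝ) (hf : ∑ G, f G = 0) :
    4 * ∑ G, f G ^ 2 ≤ H23.switchEnergy d f :=
  graph_poincare_of h3 hD (fun g => le_of_eq (genergy_sum g)) f hf

/-- **Poincare inequality from `(T)`, `(PI)` and `(J2)`**: the disjoint-pair inequality `(D)`
is the sum of the pair inequalities `(PI)` over ordered disjoint pairs and of the Johnson-type
inequalities `(J2)` (`H23.graphD_of`). -/
theorem graph_poincare_of_PI
    (h3 : ∀ u v w : Fin n, u ≠ v → u ≠ w → v ≠ w → ∀ f : Omega d → ℝ,
      ip f (gavg {v, w} f) + ip f (gavg {u, w} f) + ip f (gavg {u, v} f)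
        ≤ 2 * ip f f + ip f (gavg {u, v, w} f))
    (fen kap : Finset (Fin n) → Finset (Fin n) → (Omega d → ℝ) → ℝ)
    (hPI : ∀ b c : Finset (Fin n), b.card = 2 → c.card = 2 → Disjoint b c →
      ∀ f : Omega d → ℝ,
      (1 / 2) * fen b c f - kap b c (f - gavg b f) - kap c b (f - gavg c f)
        ≤ 2 * ip (f - gavg b f) (f - gavg c f))
    (hJ2 : ∀ b : Finset (Fin n), b.card = 2 → ∀ f : Omega d → ℝ,
      ip (f - gavg b f) (f - gavg b f)
        + ∑ c ∈ ((univ : Finset (Fin n)).powersetCard 2).filter (fun c => Disjoint b c),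
            kap b c (f - gavg b f)
        ≤ (1 / 4) * ∑ c ∈ ((univ : Finset (Fin n)).powersetCard 2).filter
            (fun c => Disjoint b c), fen b c f)
    (f : Omega d → ℝ) (hf : ∑ G, f G = 0) :
    4 * ∑ G, f G ^ 2 ≤ H23.switchEnergy d f := by
  refine graph_poincare_of2 h3 (fun g => ?_) f hf
  exact H23.graphD_of (Om := Omega d) (fun b h => h - gavg b h) fen
    (fun b c h => kap b c (h - gavg b h)) g
    (fun b hb c hc hbc => hPI b c (Finset.mem_powersetCard.mp hb).2
      (Finset.mem_powersetCard.mp hc).2 hbc g)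
    (fun b hb => hJ2 b (Finset.mem_powersetCard.mp hb).2 g)

/-- Mixing within `n^6` steps from `(T)` and `(D)`. -/
theorem graph_tv_of2 (hn : 4 ≤ n)
    (h3 : ∀ u v w : Fin n, u ≠ v → u ≠ w → v ≠ w → ∀ f : Omega d → ℝ,
      ip f (gavg {v, w} f) + ip f (gavg {u, w} f) + ip f (gavg {u, v} f)
        ≤ 2 * ip f f + ip f (gavg {u, v, w} f))
    (hD : ∀ f : Omega d → ℝ,
      ∑ b ∈ (univ : Finset (Fin n)).powersetCard 2, ip (f - gavg b f) (f - gavg b f)
        ≤ ∑ b ∈ (univ : Finset (Fin n)).powersetCard 2,
            ∑ c ∈ ((univ : Finset (Fin n)).powersetCard 2).filter (fun c => Disjoint b c),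
              ip (f - gavg b f) (f - gavg c f))
    (t : ℕ) (ht : n ^ 6 ≤ t) (G : Omega d) :
    tvDist ((switchMatrix d ^ t) G) (unifDist d) ≤ 1 / 4 :=
  switch_tv_n6 hn d (fun f hf => graph_poincare_of2 h3 hD f hf) t ht G

/-- Mixing within `n^6` steps from `(T)`, `(PI)` and `(J2)`. -/
theorem graph_tv_of_PI (hn : 4 ≤ n)
    (h3 : ∀ u v w : Fin n, u ≠ v → u ≠ w → v ≠ w → ∀ f : Omega d → ℝ,
      ip f (gavg {v, w} f) + ip f (gavg {u, w} f) + ip f (gavg {u, v} f)
        ≤ 2 * ip f f + ip f (gavg {u, v, w} f))
    (fen kap : Finset (Fin n) → Finset (Fin n) → (Omega d → ℝ) → ℝ)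
    (hPI : ∀ b c : Finset (Fin n), b.card = 2 → c.card = 2 → Disjoint b c →
      ∀ f : Omega d → ℝ,
      (1 / 2) * fen b c f - kap b c (f - gavg b f) - kap c b (f - gavg c f)
        ≤ 2 * ip (f - gavg b f) (f - gavg c f))
    (hJ2 : ∀ b : Finset (Fin n), b.card = 2 → ∀ f : Omega d → ℝ,
      ip (f - gavg b f) (f - gavg b f)
        + ∑ c ∈ ((univ : Finset (Fin n)).powersetCard 2).filter (fun c => Disjoint b c),
            kap b c (f - gavg b f)
        ≤ (1 / 4) * ∑ c ∈ ((univ : Finset (Fin n)).powersetCard 2).filter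
            (fun c => Disjoint b c), fen b c f)
    (t : ℕ) (ht : n ^ 6 ≤ t) (G : Omega d) :
    tvDist ((switchMatrix d ^ t) G) (unifDist d) ≤ 1 / 4 :=
  switch_tv_n6 hn d (fun f hf => graph_poincare_of_PI h3 fen kap hPI hJ2 f hf) t ht G

/-- A total variation bound at all times `t ≥ N` bounds the mixing time by `N`. -/
theorem tmix_le_of_tv (N : ℕ)
    (h : ∀ t : ℕ, N ≤ t → ∀ G : Omega d,
      tvDist ((switchMatrix d ^ t) G) (unifDist d) ≤ 1 / 4) :
    tmix d ≤ N := by
  unfold tmix
  apply Nat.sInf_le
  intro G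
  exact h N (le_refl _) G

end Vale.Agent.Lib.P335.H22
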